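import Vale.Agent.P143.Vert

open MeasureTheory Vale.Agent.P143

universe u

theorem Vale.Agent.Results.P143.Factor.result :
    (∀ (Γ : Type u) [Group Γ] [Infinite Γ] (S : Finset Γ), Subgroup.closure (S : Set Γ) = ⊤ →
      ∃ Φ : (Γ → unitInterval) → (Sym2 Γ → Bool), Measurable Φ ∧
        (∀ (γ : Γ) (U : Γ → unitInterval),
          Φ (fun v => U (γ⁻¹ * v)) = fun e => Φ U (e.map fun v => γ⁻¹ * v)) ∧
        IsFUSF (SimpleGraph.mulCayley (S : Set Γ)) ((iid Γ).map Φ)) ∧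
    (∀ μ : Measure (SimpleGraph ℕ × ℕ), IsProbabilityMeasure μ →
      (∀ᵐ p ∂μ, p.1.Connected ∧ ∀ v, (p.1.neighborSet v).Finite) → Unimodular μ →
      ∃ Φ : SimpleGraph ℕ → (ℕ → unitInterval) → Sym2 ℕ → Bool,
        Measurable (fun q : SimpleGraph ℕ × (ℕ → unitInterval) => Φ q.1 q.2) ∧
        (∀ (s : Equiv.Perm ℕ) (G : SimpleGraph ℕ) (U : ℕ → unitInterval) (e : Sym2 ℕ),
          Φ (G.comap s) (U ∘ s) e = Φ G U (e.map s)) ∧
        ∀ᵐ p ∂μ, IsFUSF p.1 ((iid ℕ).map (Φ p.1))) := by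
  refine ⟨fun Γ _ _ S hS => ⟨Phi (SimpleGraph.mulCayley (S : Set Γ)), ?_, fun γ U => ?_,
    cayley_main hS⟩, fun μ _ hG hμ => ⟨Phi, meas_Phi, Phi_comap, vert_main hμ hG⟩⟩
  · have := countable_of_good (cayley_good hS)
    exact meas_Phi.comp measurable_prodMk_left
  · funext e
    have := Phi_comap (Equiv.mulLeft γ⁻¹) (SimpleGraph.mulCayley (S : Set Γ)) U e
    rw [cayley_comap] at this
    exact this
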